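import Vale.Agent.P305.H529.Ball.Final
import Vale.Agent.P305.R2.H434.Main
import Vale.Agent.P305.R2.H434.Cross
import Vale.Agent.P305.R2.H336.Quad
import Vale.Agent.P305.R2.H703.Vert
import Vale.Agent.P305.R2.H262.Homot

/-! Disjointness graphs of convex sets in the plane which do not cross. -/

set_option autoImplicit false

namespace Vale.Agent.P305.H434

open Vale.Agent.P305 Vale.Agent.P305.H529 Vale.Agent.P305.H287

/-- `G` is the disjointness graph of a family of convex sets in the plane no two of which cross. -/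
def IsCoConvex {V : Type} (G : SimpleGraph V) : Prop :=
  ∃ K : V → Set (ℝ × ℝ), (∀ v, Convex ℝ (K v)) ∧
    ∀ u v, u ≠ v → NonCrossing (K u) (K v) ∧ (G.Adj u v ↔ Disjoint (K u) (K v))

theorem cycles : StD := main_geom H336.quad Vale.Agent.P305.R2.H703.V.vert cross

theorem cyc_step {V : Type} (P : V → V → Prop) {s : ℕ} [NeZero s] (a : ℕ → V) (h0 : a s = a 0)
    (h : ∀ i, i < s → P (a i) (a (i + 1))) (i : ZMod s) : P (a i.val) (a (i + 1).val) := by
  have h1 := h i.val i.val_lt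
  rcases Nat.lt_or_ge (i.val + 1) s with h2 | h2
  · have h3 : (i + 1).val = i.val + 1 := by
      have h4 : 1 < s := by omega
      have : Fact (1 < s) := ⟨h4⟩
      rw [ZMod.val_add, ZMod.val_one, Nat.mod_eq_of_lt h2]
    rwa [h3]
  · have h3 : i.val + 1 = s := by
      have := i.val_lt
      omega
    have h4 : i + 1 = 0 := by
      have h5 : ((i.val + 1 : ℕ) : ZMod s) = 0 := by rw [h3]; exact ZMod.natCast_self s
      rwa [Nat.cast_add, Nat.cast_one, ZMod.natCast_zmod_val] at h5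
    rw [h4, ZMod.val_zero, ← h0]
    rwa [h3] at h1

/-- In the disjointness graph of convex sets which do not cross, there are no two anticomplete
vertex sets both of which induce non-bipartite graphs. -/
theorem coconvex_pair {V : Type} (G : SimpleGraph V) (hG : IsCoConvex G) (S T : Set V)
    (hST : ∀ u ∈ S, ∀ v ∈ T, u ≠ v ∧ ¬ G.Adj u v) (hS : ¬ (G.induce S).IsBipartite)
    (hT : ¬ (G.induce T).IsBipartite) : False := by
  obtain ⟨K, hK, hadj⟩ := hG
  obtain ⟨s, a, hs, ha0, haS, haadj⟩ := exists_odd_walk G S hS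
  obtain ⟨t, b, ht, hb0, hbT, hbadj⟩ := exists_odd_walk G T hT
  have : NeZero s := ⟨hs.pos.ne'⟩
  have : NeZero t := ⟨ht.pos.ne'⟩
  obtain ⟨i, j, hij⟩ := cycles s t hs ht (fun i => K (a i.val)) (fun j => K (b j.val))
    (fun i => hK _) (fun j => hK _)
    (fun i => by
      have h := cyc_step G.Adj a ha0 haadj i
      exact (hadj _ _ h.ne).2.1 h)
    (fun j => by
      have h := cyc_step G.Adj b hb0 hbadj j
      exact (hadj _ _ h.ne).2.1 h)
    (fun i j => by
      obtain ⟨h1, h2⟩ := hST _ (haS i.val) _ (hbT j.val)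
      rw [← Set.not_disjoint_iff_nonempty_inter]
      exact fun h => h2 ((hadj _ _ h1).2.2 h))
  obtain ⟨h1, -⟩ := hST _ (haS i.val) _ (hbT j.val)
  exact hij (hadj _ _ h1).1

theorem in_coconvex {n : ℕ} (G : SimpleGraph (Fin n)) (U : Set (Fin n))
    (hU : IsCoConvex (G.induce U)) : oddPackingIn G U ≤ 1 :=
  in_le_one G U fun S T => coconvex_pair (G.induce U) hU S T

theorem coconvex_reduction (T : ℕ → ℕ → ℕ)
    (hT : ∀ n n' m m', n ≤ n' → m ≤ m' → T n m ≤ T n' m')
    (hP : ∃ P, Solves P (fun _ G => G.IsBipartite) (fun n G => T n G.edgeSet.ncard)) :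
    ∃ P C, Solves P (fun _ G => ∀ K : G.ConnectedComponent, IsCoConvex (G.induce K.supp))
      (fun n G => C * (T (2 * n) (2 * G.edgeSet.ncard) +
        (Nat.log 2 n + 1) * (n + G.edgeSet.ncard + 1))) := by
  obtain ⟨P, C, h⟩ := one_reduction T hT hP
  exact ⟨P, C, h.mono (fun n G hG K => in_coconvex G K.supp (hG K)) fun n G hG => le_rfl⟩

theorem coconvex_almostLinear (hB : AlmostLinear fun _ G => G.IsBipartite) (κ : ℕ → ℕ)
    (hκ : ∀ ε : ℝ, 0 < ε → ∃ c : ℝ, ∀ N : ℕ, (κ N : ℝ) ≤ c * ((N : ℝ) + 1) ^ ε) :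
    AlmostLinear fun n G => ∃ X : Set (Fin n), inducedMatchingAt G X ≤ κ (n + G.edgeSet.ncard) ∧
      ∀ K : G.ConnectedComponent, IsCoConvex (G.induce (K.supp \ X)) := by
  obtain ⟨P, T, hP, hT⟩ := comp_near_almostLinear hB κ hκ
  refine ⟨P, T, hP.mono ?_ fun _ _ _ => le_rfl, hT⟩
  rintro n G ⟨X, hX, h⟩
  exact ⟨X, hX, fun K => in_coconvex G _ (h K)⟩

theorem nonCrossing_of_conn {a b : Set (ℝ × ℝ)} (ha : Convex ℝ a) (hb : Convex ℝ b)
    (h : IsPreconnected (a \ b) ∨ IsPreconnected (b \ a)) : NonCrossing a b := by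
  rcases h with h | h
  · exact conn a b ha hb h
  · exact nonCrossing_comm.2 (conn b a hb ha h)

/-- The disjointness graph of homothetic copies `x + r K`, `r ≥ 0`, of a convex set and of
half-planes (convex sets with convex complement). -/
theorem isCoConvex_homothets {V : Type} (G : SimpleGraph V) (C : Set (ℝ × ℝ)) (hC : Convex ℝ C)
    (K : V → Set (ℝ × ℝ)) (hK : ∀ v, (∃ (x : ℝ × ℝ) (r : ℝ), 0 ≤ r ∧
      K v = (fun z => x + r • z) '' C) ∨ (Convex ℝ (K v) ∧ Convex ℝ (K v)ᶜ))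
    (hadj : ∀ u v, u ≠ v → (G.Adj u v ↔ Disjoint (K u) (K v))) : IsCoConvex G := by
  have hconv : ∀ v, Convex ℝ (K v) := by
    intro v
    rcases hK v with ⟨x, r, -, h⟩ | ⟨h, -⟩
    · rw [h]
      exact H262.convex_homothet hC x r
    · exact h
  refine ⟨K, hconv, fun u v huv => ⟨?_, hadj u v huv⟩⟩
  rcases hK u with ⟨x, r, hr, h⟩ | ⟨h1, h2⟩
  · rcases hK v with ⟨y, s, hs, h'⟩ | ⟨h1, h2⟩
    · rw [h, h']
      exact homot C x y r s hC hr hs
    · exact half (hconv u) h1 h2
  · exact nonCrossing_comm.2 (half (hconv v) h1 h2)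

end Vale.Agent.P305.H434
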