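import Vale.Agent.P305.R2.H455.Graph
import Vale.Agent.P305.R2.H273.Disk
import Vale.Agent.P305.R2.H752.NonC

/-! Disjointness graphs of homothetic copies of a convex set and half-planes are disjointness graphs
of pseudo-discs. -/

set_option autoImplicit false

namespace Vale.Agent.P305.H52

open Vale.Agent.P305.H434

theorem coconvex_copseudo {V : Type} {G : SimpleGraph V} (hG : IsCoConvex G) : IsCoPseudo G := by
  obtain ⟨K, hK, hadj⟩ := hG
  set e : ℂ ≃ₗ[ℝ] ℝ × ℝ := Complex.equivRealProdLm with he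
  have hseg : ∀ {x y q : ℂ}, q ∈ segment ℝ x y → e q ∈ segment ℝ (e x) (e y) := by
    rintro x y q ⟨a, b, ha, hb, hab, rfl⟩
    exact ⟨a, b, ha, hb, hab, by rw [map_add, map_smul, map_smul]⟩
  have hconv : ∀ v, Convex ℝ (e ⁻¹' K v) := fun v => (hK v).linear_preimage e.toLinearMap
  have hdis : ∀ u v, Disjoint (e ⁻¹' K u) (e ⁻¹' K v) ↔ Disjoint (K u) (K v) := by
    intro u v
    constructor
    · intro h
      rw [Set.disjoint_left] at h ⊢
      intro p hp hp'
      obtain ⟨z, rfl⟩ := e.surjective p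
      exact h hp hp'
    · exact fun h => h.preimage _
  refine ⟨fun v => e ⁻¹' K v, fun v => H273.jo_of_convex (hconv v), fun u v huv hm =>
      Or.inr (Or.inr (Or.inr ⟨H273.holeFree_of_convex (hconv u) hm.left,
        H273.holeFree_of_convex (hconv v) hm.right,
        nonCross_of_convex (hconv u) (hconv v) ?_⟩)), fun u v huv => ?_⟩
  · intro x hx y hy z hz w hw
    rw [Set.disjoint_left]
    intro q hq hq'
    exact Set.disjoint_left.1 ((hadj u v huv).1 (e x) hx (e y) hy (e z) hz (e w) hw)
      (hseg hq) (hseg hq')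
  · rw [(hadj u v huv).2, hdis]

/-- Homothetic copies `x + r C`, `r ≥ 0`, of a convex set `C` of the plane, and convex sets whose
complement is convex (half-planes). -/
theorem homothets_copseudo {V : Type} (G : SimpleGraph V) (C : Set ℂ) (hC : Convex ℝ C)
    (S : V → Set ℂ) (hS : ∀ v, (∃ (x : ℂ) (r : ℝ), 0 ≤ r ∧ S v = (fun z => x + r • z) '' C) ∨
      (Convex ℝ (S v) ∧ Convex ℝ (S v)ᶜ))
    (hadj : ∀ u v, u ≠ v → (G.Adj u v ↔ Disjoint (S u) (S v))) : IsCoPseudo G := by
  set e : ℂ ≃ₗ[ℝ] ℝ × ℝ := Complex.equivRealProdLm with he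
  refine coconvex_copseudo (isCoConvex_homothets G (e '' C) (hC.linear_image e.toLinearMap)
    (fun v => e '' S v) (fun v => ?_) fun u v huv => ?_)
  · rcases hS v with ⟨x, r, hr, h⟩ | ⟨h1, h2⟩
    · refine Or.inl ⟨e x, r, hr, ?_⟩
      rw [h, Set.image_image, Set.image_image]
      refine Set.image_congr fun z _ => ?_
      rw [map_add, map_smul]
    · refine Or.inr ⟨h1.linear_image e.toLinearMap, ?_⟩
      rw [← Set.image_compl_eq e.bijective]
      exact h2.linear_image e.toLinearMap
  · rw [hadj u v huv, Set.disjoint_image_iff e.injective]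

end Vale.Agent.P305.H52
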